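import Mathlib

/-!
P144 (universality for weakly perturbed planar Ising models): two exact finite-volume facts for the
perturbed Gibbs measure with free boundary conditions on an arbitrary finite set `Λ ⊂ ℤ²`
(`Λ = D_a / a`).

1. If `V` is a nearest-neighbour pair potential `V = v · nn`, the perturbed measure at
   `β = K / (J + λ v)` is the unperturbed measure at `β = K / J`.
2. For every even potential `V`, all `λ`, `β`: mixed correlations of an odd number of spins and any
   number of (arbitrarily centred) bond energies vanish.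
-/

namespace Vale.Agent.Results.P144.ExactCases

open Finset

/-- lattice sites -/
abbrev Site := ℤ × ℤ

/-- the spin at `x` in the configuration whose set of minus spins is `S` -/
noncomputable def spin (S : Finset Site) (x : Site) : ℝ := if x ∈ S then -1 else 1

open scoped Classical in
/-- indicator of the nearest-neighbour pairs `{u, v}`, `|u - v| = 1` -/
noncomputable def nn (A : Finset Site) : ℝ :=
  if ∃ u v : Site, A = {u, v} ∧ |u.1 - v.1| + |u.2 - v.2| = 1 then 1 else 0

/-- the Hamiltonian with free boundary conditions on `Λ` -/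
noncomputable def ham (J lam : ℝ) (V : Finset Site → ℝ) (Λ S : Finset Site) : ℝ :=
  -J * ∑ A ∈ Λ.powerset, nn A * ∏ x ∈ A, spin S x
    - lam * ∑ A ∈ Λ.powerset.filter (fun A => A.Nonempty), V A * ∏ x ∈ A, spin S x

/-- Gibbs expectation at inverse temperature `β`; configurations are the subsets `S ⊆ Λ` -/
noncomputable def gibbs (J lam : ℝ) (V : Finset Site → ℝ) (β : ℝ) (Λ : Finset Site)
    (F : Finset Site → ℝ) : ℝ :=
  (∑ S ∈ Λ.powerset, F S * Real.exp (-β * ham J lam V Λ S)) /
    ∑ S ∈ Λ.powerset, Real.exp (-β * ham J lam V Λ S)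

lemma nn_card {A : Finset Site} (h : nn A ≠ 0) : A.card = 2 := by
  classical
  unfold nn at h
  split_ifs at h with hA
  · obtain ⟨u, v, rfl, huv⟩ := hA
    apply Finset.card_pair
    rintro rfl
    simp at huv
  · exact absurd rfl h

lemma nn_empty : nn ∅ = 0 := by
  by_contra h
  have := nn_card h
  simp at this

lemma ham_nn (J lam v : ℝ) (Λ S : Finset Site) :
    ham J lam (fun A => v * nn A) Λ S
      = -(J + lam * v) * ∑ A ∈ Λ.powerset, nn A * ∏ x ∈ A, spin S x := by
  have h : ∑ A ∈ Λ.powerset.filter (fun A => A.Nonempty), (v * nn A) * ∏ x ∈ A, spin S x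
      = v * ∑ A ∈ Λ.powerset, nn A * ∏ x ∈ A, spin S x := by
    rw [Finset.mul_sum, Finset.sum_filter]
    apply Finset.sum_congr rfl
    intro A _
    split_ifs with hA
    · ring
    · rw [Finset.not_nonempty_iff_eq_empty.1 hA, nn_empty]; ring
  unfold ham
  rw [h]; ring

lemma ham_zero (J : ℝ) (V : Finset Site → ℝ) (Λ S : Finset Site) :
    ham J 0 V Λ S = -J * ∑ A ∈ Λ.powerset, nn A * ∏ x ∈ A, spin S x := by
  unfold ham; ring

theorem nn_case (J lam v K : ℝ) (hJ : 0 < J) (hJ' : 0 < J + lam * v) (V' : Finset Site → ℝ)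
    (Λ : Finset Site) (F : Finset Site → ℝ) :
    gibbs J lam (fun A => v * nn A) (K / (J + lam * v)) Λ F = gibbs J 0 V' (K / J) Λ F := by
  have h : ∀ S, -(K / (J + lam * v)) * ham J lam (fun A => v * nn A) Λ S
      = -(K / J) * ham J 0 V' Λ S := by
    intro S
    rw [ham_nn, ham_zero]
    field_simp
  unfold gibbs
  simp only [h]

lemma spin_compl {Λ S : Finset Site} {x : Site} (hx : x ∈ Λ) : spin (Λ \ S) x = -spin S x := by
  unfold spin
  by_cases h : x ∈ S
  · simp [h]
  · simp [h, hx]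

lemma prod_spin_compl {Λ S A : Finset Site} (hA : A ⊆ Λ) :
    ∏ x ∈ A, spin (Λ \ S) x = (-1) ^ A.card * ∏ x ∈ A, spin S x := by
  rw [← Finset.prod_neg]
  exact Finset.prod_congr rfl (fun x hx => spin_compl (hA hx))

lemma ham_compl (J lam : ℝ) (V : Finset Site → ℝ) (hV : ∀ A, Odd A.card → V A = 0)
    (Λ S : Finset Site) : ham J lam V Λ (Λ \ S) = ham J lam V Λ S := by
  unfold ham
  congr 2
  · apply Finset.sum_congr rfl
    intro A hA
    by_cases h : nn A = 0
    · rw [h]; ring
    · rw [prod_spin_compl (Finset.mem_powerset.1 hA), nn_card h]; ring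
  · apply Finset.sum_congr rfl
    intro A hA
    rcases Nat.even_or_odd A.card with he | ho
    · rw [prod_spin_compl (Finset.mem_powerset.1 (Finset.mem_filter.1 hA).1), he.neg_one_pow]; ring
    · rw [hV A ho]; ring

theorem odd_case (J lam β : ℝ) (V : Finset Site → ℝ) (hV : ∀ A, Odd A.card → V A = 0)
    (Λ : Finset Site) (n m : ℕ) (hn : Odd n) (x : Fin n → Site) (hx : ∀ i, x i ∈ Λ)
    (y y' : Fin m → Site) (hy : ∀ k, y k ∈ Λ) (hy' : ∀ k, y' k ∈ Λ) (c : Fin m → ℝ) :
    gibbs J lam V β Λ
      (fun S => (∏ i, spin S (x i)) * ∏ k, (spin S (y k) * spin S (y' k) - c k)) = 0 := by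
  have hF : ∀ S, (∏ i, spin (Λ \ S) (x i)) * ∏ k, (spin (Λ \ S) (y k) * spin (Λ \ S) (y' k) - c k)
      = -((∏ i, spin S (x i)) * ∏ k, (spin S (y k) * spin S (y' k) - c k)) := by
    intro S
    have h1 : ∏ i, spin (Λ \ S) (x i) = -∏ i, spin S (x i) := by
      have : ∏ i, spin (Λ \ S) (x i) = ∏ i, -spin S (x i) :=
        Finset.prod_congr rfl (fun i _ => spin_compl (hx i))
      rw [this, Finset.prod_neg, Finset.card_univ, Fintype.card_fin, hn.neg_one_pow]; ring
    have h2 : ∏ k, (spin (Λ \ S) (y k) * spin (Λ \ S) (y' k) - c k)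
        = ∏ k, (spin S (y k) * spin S (y' k) - c k) := by
      apply Finset.prod_congr rfl
      intro k _
      rw [spin_compl (hy k), spin_compl (hy' k)]; ring
    rw [h1, h2]; ring
  have hnum : ∑ S ∈ Λ.powerset,
      ((∏ i, spin S (x i)) * ∏ k, (spin S (y k) * spin S (y' k) - c k)) *
        Real.exp (-β * ham J lam V Λ S) = 0 := by
    have hre : ∑ S ∈ Λ.powerset,
        ((∏ i, spin S (x i)) * ∏ k, (spin S (y k) * spin S (y' k) - c k)) *
          Real.exp (-β * ham J lam V Λ S)
        = ∑ S ∈ Λ.powerset,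
        ((∏ i, spin (Λ \ S) (x i)) * ∏ k, (spin (Λ \ S) (y k) * spin (Λ \ S) (y' k) - c k)) *
          Real.exp (-β * ham J lam V Λ (Λ \ S)) := by
      apply Finset.sum_nbij' (fun S => Λ \ S) (fun S => Λ \ S)
      · intro S _; exact Finset.mem_powerset.2 Finset.sdiff_subset
      · intro S _; exact Finset.mem_powerset.2 Finset.sdiff_subset
      · intro S hS; exact Finset.sdiff_sdiff_eq_self (Finset.mem_powerset.1 hS)
      · intro S hS; exact Finset.sdiff_sdiff_eq_self (Finset.mem_powerset.1 hS)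
      · intro S hS
        rw [Finset.sdiff_sdiff_eq_self (Finset.mem_powerset.1 hS)]
    have hneg : ∑ S ∈ Λ.powerset,
        ((∏ i, spin (Λ \ S) (x i)) * ∏ k, (spin (Λ \ S) (y k) * spin (Λ \ S) (y' k) - c k)) *
          Real.exp (-β * ham J lam V Λ (Λ \ S))
        = -∑ S ∈ Λ.powerset,
        ((∏ i, spin S (x i)) * ∏ k, (spin S (y k) * spin S (y' k) - c k)) *
          Real.exp (-β * ham J lam V Λ S) := by
      rw [← Finset.sum_neg_distrib]
      apply Finset.sum_congr rfl
      intro S _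
      rw [hF S, ham_compl J lam V hV]; ring
    rw [hneg] at hre
    linarith
  unfold gibbs
  rw [hnum, zero_div]

theorem result :
    (∀ (J lam v K : ℝ), 0 < J → 0 < J + lam * v → ∀ (V' : Finset Site → ℝ) (Λ : Finset Site)
      (F : Finset Site → ℝ),
      gibbs J lam (fun A => v * nn A) (K / (J + lam * v)) Λ F = gibbs J 0 V' (K / J) Λ F) ∧
    (∀ (J lam β : ℝ) (V : Finset Site → ℝ), (∀ A, Odd A.card → V A = 0) →
      ∀ (Λ : Finset Site) (n m : ℕ), Odd n → ∀ x : Fin n → Site, (∀ i, x i ∈ Λ) →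
      ∀ y y' : Fin m → Site, (∀ k, y k ∈ Λ) → (∀ k, y' k ∈ Λ) → ∀ c : Fin m → ℝ,
      gibbs J lam V β Λ
        (fun S => (∏ i, spin S (x i)) * ∏ k, (spin S (y k) * spin S (y' k) - c k)) = 0) :=
  ⟨fun J lam v K hJ hJ' V' Λ F => nn_case J lam v K hJ hJ' V' Λ F,
   fun J lam β V hV Λ n m hn x hx y y' hy hy' c =>
     odd_case J lam β V hV Λ n m hn x hx y y' hy hy' c⟩

end Vale.Agent.Results.P144.ExactCases
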